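import Vale.Agent.P088.R2.H983.N.Inst
import Vale.Agent.P088.R2.H747.N.Cn2

/-!
# P088, stage 3, zone A: `SmS` for fields `fl (e z) (D W) (γ z)` with an arbitrary covector field

`smS_fc`: any field `c` with `|c| ≤ C k/|w|`, `|D c| ≤ C k ε`.  `smS_gv`: `c = fl e w γ` with
`|γ| ≤ C k`, `|D γ| ≤ C k b`, `e` variable.  `Gv.blend`: `γ = p γ₁ + (1 - p) γ₂`.
`smS_A`: the blended field of zone A, `γ = p(r) 4 G (α e + β h) + (1 - p(r)) G/(300000 r) (s h + e)`.
-/

open Set Filter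
open scoped ContDiff Topology

noncomputable section

namespace Vale.Agent.P088.R2.H983.A

open Vale.Agent.P088.R2.H983.Fl Vale.Agent.P088.R2.H983.N
open Vale.Agent.P088.R2.H230.W (dd fl)
open Vale.Agent.P088.R2.H960.W (dF eC cY cY_bd cY_sq eC_bd abs_sum2_le eta YY)
open Vale.Agent.P088.R2.H961.GW (Sm Sl)
open Vale.Agent.P088.R2.H747.SW (SmS ss Ys)
open Vale.Agent.P088.R2.H942.Iso.Near (KK)

section gen

variable {E ι : Type*} [NormedAddCommGroup E] [NormedSpace ℝ E] [Fintype ι]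
variable {C b ε μ η : ℝ} {k W v m : E → ℝ} {c : ι → E → ℝ} {e h γ γ₁ γ₂ : E → ι → ℝ} {z : E}
  {σ : Sl E ι}

/-- A field with the bounds of the regime. -/
structure Fc (σ : Sl E ι) (W k : E → ℝ) (c : ι → E → ℝ) (C ε : ℝ) (z : E) : Prop where
  C0 : 0 ≤ C
  k0 : 0 ≤ k z
  dc : ∀ l, DifferentiableAt ℝ (c l) z
  c0 : ∀ l, |c l z| ≤ C * k z / nn (gw σ W z)
  c1 : ∀ i l, |σ.D i (c l) z| ≤ C * k z * ε

/-- The error density of the multiplier identity. -/
theorem Fc.eC [Nonempty ι] (f : Fc σ W k c C ε z) (r : Rg σ W k b ε z) (hb : 0 ≤ b)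
    (t : Mt σ z) (hv : v z = 0) (g : E → ℝ) :
    |H960.W.eC σ c v W g z| ≤
      (9 * C * Fintype.card ι ^ 2 * ε) * (k z * ∑ i, YY σ W g i z ^ 2) := by
  have hC := f.C0
  have hk := f.k0
  have hw := nn_pos r.pos
  have iw := inv_w r hb
  have hε : 0 ≤ ε := (by positivity : (0:ℝ) ≤ 1 / nn (gw σ W z)).trans iw
  have h0 : ∀ l, |c l z| ≤ C * k z * ε := fun l => (f.c0 l).trans (by
    have := mul_le_mul_of_nonneg_left iw (mul_nonneg hC hk)
    rwa [mul_one_div] at this)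
  have h := eC_bd (σ := σ) (v := v) (W := W) (a := g) (S := 2) (B := 1) t.s2 t.D1 t.k1 t.e1 h0
    (fun i l => f.c1 i l) (by norm_num) (by norm_num) (by positivity) (by positivity)
  refine h.trans ?_
  rw [hv]
  have hY : 0 ≤ ∑ i, YY σ W g i z ^ 2 := Finset.sum_nonneg fun i _ => sq_nonneg _
  have hn : (1 : ℝ) ≤ Fintype.card ι := by exact_mod_cast Fintype.card_pos
  have hn2 : (Fintype.card ι : ℝ) ≤ Fintype.card ι ^ 2 := by nlinarith
  have q : 0 ≤ C * k z * ε * ∑ i, YY σ W g i z ^ 2 := by positivity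
  have q2 := mul_le_mul_of_nonneg_left hn2 q
  nlinarith

/-- The divergence of `F c`. -/
theorem Fc.dF [Nonempty ι] (f : Fc σ W k c C ε z) (r : Rg σ W k b ε z) (hb : 0 ≤ b)
    (t : Mt σ z) : |H960.W.dF σ c W z| ≤
      (9 * C * Fintype.card ι ^ 2 * ε) * (k z * nn (gw σ W z) ^ 2) := by
  have hC := f.C0
  have hk := f.k0
  have hw := nn_pos r.pos
  have hε : 0 ≤ ε := (by positivity : (0:ℝ) ≤ 1 / nn (gw σ W z)).trans (inv_w r hb)
  have h := dF_le (σ := σ) (W := W) (c := c) t.ds r.dw f.dc t.s2 t.D1 t.k1 r.hM f.c0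
    (fun i l => f.c1 i l)
  refine h.trans ?_
  set w := nn (gw σ W z) with hwd
  have e1 : w ^ 2 * (C * k z / w) = C * k z * w := by field_simp
  have e2 : (2 * 2 * (ε * w ^ 2 * w)) * (C * k z / w) = 4 * C * k z * (ε * w ^ 2) := by
    field_simp; ring
  have e3 : (1 * w ^ 2 + 2 * 2 * (ε * w ^ 2 * w)) * (C * k z / w) +
      2 * w ^ 2 * (C * k z * ε) + 1 * 2 * w ^ 2 * (C * k z / w) =
      3 * (C * k z * w) + 4 * C * k z * (ε * w ^ 2) + 2 * C * k z * ε * w ^ 2 := by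
    rw [add_mul, e2, one_mul, e1, mul_assoc (1 * 2) (w ^ 2), e1]; ring
  rw [e3]
  have q1 : w ≤ ε * w ^ 2 := by
    have : 1 ≤ ε * w := by linarith [r.hb]
    nlinarith
  have q2 := mul_le_mul_of_nonneg_left q1 (show 0 ≤ 3 * C * k z by positivity)
  have q3 : 3 * (C * k z * w) + 4 * C * k z * (ε * w ^ 2) + 2 * C * k z * ε * w ^ 2 ≤
      9 * C * ε * (k z * w ^ 2) := by linarith
  have := mul_le_mul_of_nonneg_left q3 (show (0:ℝ) ≤ Fintype.card ι ^ 2 by positivity)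
  refine this.trans (le_of_eq ?_)
  ring

/-- **`SmS` for any field in the regime.** -/
theorem smS_fc [Nonempty ι] (f : Fc σ W k c C ε z) (r : Rg σ W k b ε z) (hb : 0 ≤ b)
    (t : Mt σ z) (hv : v z = 0) (hμ : 0 < μ) (hη : 0 < η)
    (lo : ∀ A : ι → ℝ, ∑ i, A i ^ 2 ≤ 2 * ss σ A z) {Ks : ℝ}
    (sK : ∀ A B : ι → ℝ,
      (∑ i, ∑ j, σ.s i j z * A i * B j) ^ 2 ≤ Ks ^ 2 * ((∑ i, A i ^ 2) * ∑ i, B i ^ 2))
    (hkm : μ * k z ≤ m z) (hm : 2 + m z ≤ ε * nn (gw σ W z) ^ 2)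
    (hDm : ∀ i, |σ.D i m z| ≤ m z * b)
    (e1 : Fintype.card ι ^ 2 * (14 * ε) ≤ η)
    (e2 : Fintype.card ι ^ 2 * (18 * C * ε) ≤ η * μ)
    (e3 : Fintype.card ι * (2 * C ^ 2 * ε) ≤ η ^ 4 * μ ^ 2) :
    SmS σ W m c v η Ks z := by
  have hC := f.C0
  have hk := f.k0
  have hw := nn_pos r.pos
  have hε : 0 ≤ ε := (by positivity : (0:ℝ) ≤ 1 / nn (gw σ W z)).trans (inv_w r hb)
  have m0 : 0 ≤ m z := le_trans (by positivity) hkm
  have hF : nn (gw σ W z) ^ 2 ≤ 2 * σ.F W z := by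
    have := lo (gw σ W z)
    have e : ∑ i, gw σ W z i ^ 2 = nn (gw σ W z) ^ 2 := by
      rw [nn_sq]; exact Finset.sum_congr rfl fun i _ => by ring
    rw [e] at this
    exact this
  have F0 : 0 ≤ σ.F W z := by nlinarith [sq_nonneg (nn (gw σ W z))]
  have N0 : (0 : ℝ) ≤ Fintype.card ι ^ 2 := by positivity
  set w := nn (gw σ W z) with hwd
  have mw : m z * w ^ 2 ≤ 2 * (m z * σ.F W z) := by
    have := mul_le_mul_of_nonneg_left hF m0
    linarith
  have mF : 0 ≤ m z * σ.F W z := mul_nonneg m0 F0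
  have Y0 : ∀ f : E → ℝ, 0 ≤ Ys σ W f z := fun f => Finset.sum_nonneg fun i _ => sq_nonneg _
  refine { m0 := m0, lo := lo, sK := sK, w1 := ?_, f1 := ?_, f2 := fun g => ?_, f3 := ?_ }
  · refine (abs_add_le _ _).trans ?_
    rw [abs_mul, abs_of_nonneg m0]
    have a1 := mul_le_mul_of_nonneg_left (lam_le r t hb) m0
    have a2 := gam_le r t hb m0 hDm
    have a3 : m z * (Fintype.card ι ^ 2 * (5 * ε * w ^ 2)) +
        Fintype.card ι ^ 2 * (2 * ε * (m z * w ^ 2)) =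
        (Fintype.card ι ^ 2 * (7 * ε)) * (m z * w ^ 2) := by ring
    have a4 := mul_le_mul_of_nonneg_left mw (show 0 ≤ Fintype.card ι ^ 2 * (7 * ε) by positivity)
    have a5 := mul_le_mul_of_nonneg_right e1 mF
    linarith
  · refine (f.dF r hb t).trans ?_
    have a1 : k z * w ^ 2 * μ ≤ m z * w ^ 2 := by
      have := mul_le_mul_of_nonneg_right hkm (sq_nonneg w)
      linarith
    have a2 : (9 * C * Fintype.card ι ^ 2 * ε) * (k z * w ^ 2) * μ ≤
        η * (m z * σ.F W z) * μ := by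
      calc (9 * C * Fintype.card ι ^ 2 * ε) * (k z * w ^ 2) * μ
          = (9 * C * Fintype.card ι ^ 2 * ε) * (k z * w ^ 2 * μ) := by ring
        _ ≤ (9 * C * Fintype.card ι ^ 2 * ε) * (2 * (m z * σ.F W z)) :=
            mul_le_mul_of_nonneg_left (a1.trans mw) (by positivity)
        _ = (Fintype.card ι ^ 2 * (18 * C * ε)) * (m z * σ.F W z) := by ring
        _ ≤ (η * μ) * (m z * σ.F W z) := mul_le_mul_of_nonneg_right e2 mF
        _ = _ := by ring
    exact le_of_mul_le_mul_right a2 hμ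
  · refine (f.eC r hb t hv g).trans ?_
    have a1 : k z * Ys σ W g z * μ ≤ m z * Ys σ W g z := by
      have := mul_le_mul_of_nonneg_right hkm (Y0 g)
      linarith
    have mY : 0 ≤ m z * Ys σ W g z := mul_nonneg m0 (Y0 g)
    have a2 : (9 * C * Fintype.card ι ^ 2 * ε) * (k z * Ys σ W g z) * μ ≤
        η * (1 / 2 * m z * Ys σ W g z) * μ := by
      calc (9 * C * Fintype.card ι ^ 2 * ε) * (k z * Ys σ W g z) * μ
          = (9 * C * Fintype.card ι ^ 2 * ε) * (k z * Ys σ W g z * μ) := by ring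
        _ ≤ (9 * C * Fintype.card ι ^ 2 * ε) * (m z * Ys σ W g z) :=
            mul_le_mul_of_nonneg_left a1 (by positivity)
        _ = (Fintype.card ι ^ 2 * (18 * C * ε)) * (1 / 2 * (m z * Ys σ W g z)) := by ring
        _ ≤ (η * μ) * (1 / 2 * (m z * Ys σ W g z)) :=
            mul_le_mul_of_nonneg_right e2 (by positivity)
        _ = _ := by ring
    exact le_of_mul_le_mul_right a2 hμ
  · have c1 : ∀ l, c l z ^ 2 ≤ (C * k z / w) ^ 2 := fun l => by
      rw [← sq_abs]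
      exact pow_le_pow_left₀ (abs_nonneg _) (f.c0 l) 2
    have c2 : ∑ i, c i z ^ 2 ≤ Fintype.card ι * (C * k z / w) ^ 2 := by
      refine (Finset.sum_le_sum fun i _ => c1 i).trans (le_of_eq ?_)
      rw [Finset.sum_const, Finset.card_univ, nsmul_eq_mul]
    have s0 : 0 ≤ ∑ i, c i z ^ 2 := Finset.sum_nonneg fun i _ => sq_nonneg _
    have c3 : (2 + m z) * ∑ i, c i z ^ 2 ≤ ε * w ^ 2 * (Fintype.card ι * (C * k z / w) ^ 2) :=
      mul_le_mul hm c2 s0 (by positivity)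
    have c4 : ε * w ^ 2 * (Fintype.card ι * (C * k z / w) ^ 2) =
        Fintype.card ι * (2 * C ^ 2 * ε) * (1 / 2 * k z ^ 2) := by
      field_simp
    have c5 : (μ * k z) ^ 2 ≤ m z ^ 2 := pow_le_pow_left₀ (by positivity) hkm 2
    rw [c4] at c3
    refine c3.trans ?_
    have c6 := mul_le_mul_of_nonneg_right e3 (show 0 ≤ 1 / 2 * k z ^ 2 by positivity)
    have c7 := mul_le_mul_of_nonneg_left c5 (show 0 ≤ η ^ 4 * (1 / 2) by positivity)
    linarith

/-- The bounds of the covector field `γ` and of the vector field `e`. -/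
structure Gv (σ : Sl E ι) (e γ : E → ι → ℝ) (k : E → ℝ) (C b : ℝ) (z : E) : Prop where
  C0 : 0 ≤ C
  b0 : 0 ≤ b
  k0 : 0 ≤ k z
  de : Dfv e z
  dg : Dfv γ z
  ee : nn (e z) ≤ 2
  be : ∀ j, nn (dv σ j e z) ≤ b
  g0 : nn (γ z) ≤ C * k z
  g1 : ∀ j, nn (dv σ j γ z) ≤ C * k z * b

theorem Gv.mono {k' : E → ℝ} {C' b' : ℝ} (g : Gv σ e γ k C b z) (h : C * k z ≤ C' * k' z)
    (hC : 0 ≤ C') (hk : 0 ≤ k' z) (hb : b ≤ b') : Gv σ e γ k' C' b' z where
  C0 := hC
  b0 := g.b0.trans hb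
  k0 := hk
  de := g.de
  dg := g.dg
  ee := g.ee
  be j := (g.be j).trans hb
  g0 := g.g0.trans h
  g1 j := (g.g1 j).trans (mul_le_mul h hb g.b0 (mul_nonneg hC hk))

/-- The field of a covector. -/
theorem Gv.fc (g : Gv σ e γ k C b z) (r : Rg σ W k b ε z) :
    Fc σ W k (fun l z => fl (e z) (gw σ W z) (γ z) l) (27 * C) ε z := by
  have hC := g.C0
  have hk := g.k0
  have hb := g.b0
  have hw := nn_pos r.pos
  have Ck : 0 ≤ C * k z := mul_nonneg hC hk
  have e0 := nn_nonneg (e z)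
  have γ0 := nn_nonneg (γ z)
  refine { C0 := by positivity, k0 := hk, dc := fun l => Dfv.fl g.de r.dw g.dg r.pos l,
           c0 := fun l => ?_, c1 := fun i l => ?_ }
  · refine (abs_le_nn (fl (e z) (gw σ W z) (γ z)) l).trans ((fl_nn (γ z) r.pos).trans ?_)
    refine div_le_div_of_nonneg_right ?_ hw.le
    have := mul_le_mul g.ee g.g0 γ0 (by norm_num)
    linarith
  · refine (abs_le_nn (dv σ i (fun z => fl (e z) (gw σ W z) (γ z)) z) l).trans ?_
    refine (D_fl_nn σ i g.de r.dw g.dg r.pos).trans ?_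
    have t1 : 3 * (nn (dv σ i e z) * nn (γ z) + nn (e z) * nn (dv σ i γ z)) ≤
        9 * (C * k z) * b := by
      have a1 := mul_le_mul (g.be i) g.g0 γ0 hb
      have a2 := mul_le_mul g.ee (g.g1 i) (nn_nonneg _) (by norm_num)
      linarith
    have t2 : 9 * (nn (e z) * nn (γ z) * nn (dv σ i (gw σ W) z)) ≤
        18 * (C * k z) * (ε * nn (gw σ W z) ^ 2) := by
      have a1 := mul_le_mul g.ee g.g0 γ0 (by norm_num)
      have a2 := mul_le_mul a1 (r.hM i) (nn_nonneg _) (by positivity)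
      linarith
    have s1 : 3 * (nn (dv σ i e z) * nn (γ z) + nn (e z) * nn (dv σ i γ z)) / nn (gw σ W z) ≤
        9 * (C * k z) * ε := by
      rw [div_le_iff₀ hw]
      have a3 : b ≤ ε * nn (gw σ W z) := by linarith [r.hb]
      have := mul_le_mul_of_nonneg_left a3 (show 0 ≤ 9 * (C * k z) by positivity)
      linarith
    have s2 : 9 * (nn (e z) * nn (γ z) * nn (dv σ i (gw σ W) z)) / nn (gw σ W z) ^ 2 ≤
        18 * (C * k z) * ε := by
      rw [div_le_iff₀ (by positivity)]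
      linarith
    linarith

/-- The sum of two covector fields with a cut-off. -/
theorem Gv.blend {p : E → ℝ} (g₁ : Gv σ e γ₁ k C b z) (g₂ : Gv σ e γ₂ k C b z)
    (hp : DifferentiableAt ℝ p z) (p0 : 0 ≤ p z) (p1 : p z ≤ 1) (pb : ∀ j, |σ.D j p z| ≤ b) :
    Gv σ e (fun z => p z • γ₁ z + (1 - p z) • γ₂ z) k (3 * C) b z := by
  have hC := g₁.C0
  have hk := g₁.k0
  have hb := g₁.b0
  have Ck : 0 ≤ C * k z := mul_nonneg hC hk
  have hq : DifferentiableAt ℝ (fun z => 1 - p z) z := hp.const_sub 1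
  have d1 : Dfv (fun z => p z • γ₁ z) z := fun i => hp.mul (g₁.dg i)
  have d2 : Dfv (fun z => (1 - p z) • γ₂ z) z := fun i => hq.mul (g₂.dg i)
  have Dq : ∀ j, σ.D j (fun z => 1 - p z) z = -σ.D j p z := by
    intro j
    simp only [Sl.D]
    rw [fderiv_const_sub]
    simp only [_root_.neg_apply]; ring
  refine { C0 := by positivity, b0 := hb, k0 := hk, de := g₁.de,
           dg := fun i => (d1 i).add (d2 i), ee := g₁.ee, be := g₁.be, g0 := ?_,
           g1 := fun j => ?_ }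
  · refine (nn_add_le _ _).trans ?_
    rw [nn_smul, nn_smul, abs_of_nonneg p0, abs_of_nonneg (by linarith : 0 ≤ 1 - p z)]
    have a1 := mul_le_mul_of_nonneg_left g₁.g0 p0
    have a2 := mul_le_mul_of_nonneg_left g₂.g0 (by linarith : 0 ≤ 1 - p z)
    linarith
  · rw [dv_add σ j d1 d2, dv_smul σ j hp g₁.dg, dv_smul σ j hq g₂.dg, Dq j]
    refine (nn_add_le _ _).trans ?_
    have b1 := nn_add_le (p z • dv σ j γ₁ z) (σ.D j p z • γ₁ z)
    have b2 := nn_add_le ((1 - p z) • dv σ j γ₂ z) ((-σ.D j p z) • γ₂ z)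
    rw [nn_smul, nn_smul, abs_of_nonneg p0] at b1
    rw [nn_smul, nn_smul, abs_of_nonneg (by linarith : 0 ≤ 1 - p z), abs_neg] at b2
    have a1 := mul_le_mul_of_nonneg_left (g₁.g1 j) p0
    have a2 := mul_le_mul_of_nonneg_left (g₂.g1 j) (by linarith : 0 ≤ 1 - p z)
    have a3 := mul_le_mul (pb j) g₁.g0 (nn_nonneg _) hb
    have a4 := mul_le_mul (pb j) g₂.g0 (nn_nonneg _) hb
    linarith

/-- The cut-off is zero to first order. -/
theorem Gv.blend0 {p : E → ℝ} (d₁ : Dfv γ₁ z) (g₂ : Gv σ e γ₂ k C b z)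
    (hp : DifferentiableAt ℝ p z) (p0 : p z = 0) (pb : ∀ j, σ.D j p z = 0) :
    Gv σ e (fun z => p z • γ₁ z + (1 - p z) • γ₂ z) k (3 * C) b z := by
  have hC := g₂.C0
  have hk := g₂.k0
  have hb := g₂.b0
  have Ck : 0 ≤ C * k z := mul_nonneg hC hk
  have hq : DifferentiableAt ℝ (fun z => 1 - p z) z := hp.const_sub 1
  have d1 : Dfv (fun z => p z • γ₁ z) z := fun i => hp.mul (d₁ i)
  have d2 : Dfv (fun z => (1 - p z) • γ₂ z) z := fun i => hq.mul (g₂.dg i)
  have Dq : ∀ j, σ.D j (fun z => 1 - p z) z = 0 := by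
    intro j
    have := pb j
    simp only [Sl.D] at this ⊢
    rw [fderiv_const_sub]
    simp only [_root_.neg_apply]; linarith
  refine { C0 := by positivity, b0 := hb, k0 := hk, de := g₂.de,
           dg := fun i => (d1 i).add (d2 i), ee := g₂.ee, be := g₂.be, g0 := ?_,
           g1 := fun j => ?_ }
  · simp only [p0, zero_smul, zero_add, sub_zero, one_smul]
    have := g₂.g0
    linarith
  · rw [dv_add σ j d1 d2, dv_smul σ j hp d₁, dv_smul σ j hq g₂.dg, Dq j, pb j, p0]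
    simp only [zero_smul, zero_add, sub_zero, one_smul, add_zero]
    have := g₂.g1 j
    have : 0 ≤ C * k z * b := by positivity
    linarith

/-- The covector field near the diagonal, `γ = 4 G (α(r, e·h) e + β(r, e·h) h)`, from the data
`AtG` (with `k = 4 G`), in the letter `G / r`. -/
theorem gv_near {α β : ℝ × ℝ → ℝ} {c0 r1 : ℝ} {G r : E → ℝ} (c : Cf α β (KK c0 r1) C)
    (a : AtG σ (KK c0 r1) (fun z => 4 * G z) r (fun z => dd (e z) (h z)) e h b z)
    (hc0 : 0 < c0) (G0 : 0 ≤ G z) (hb : 0 ≤ b) (hr : r z ≤ r1) :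
    Gv σ e (fun z => (4 * G z) • gG α β r (fun z => dd (e z) (h z)) e h z) (fun z => G z / r z)
      (56 * C * r1) b z := by
  have hC := c.C0
  have g0 := gG_bd c a
  have gd := gG_df c a
  have r0 : c0 ≤ r z := a.mem.1.1
  have rp : 0 < r z := hc0.trans_le r0
  have key : G z ≤ r1 * (G z / r z) := by
    rw [mul_div_assoc', le_div_iff₀ rp]
    have := mul_le_mul_of_nonneg_left hr G0
    linarith
  have r10 : 0 ≤ r1 := rp.le.trans hr
  refine { C0 := by positivity, b0 := hb, k0 := by positivity, de := a.de,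
           dg := fun i => a.dk.mul (gd i), ee := a.ee, be := a.be, g0 := ?_, g1 := fun j => ?_ }
  · rw [nn_smul, abs_of_nonneg a.k0]
    have h1 := mul_le_mul_of_nonneg_left g0 a.k0
    have h2 := mul_le_mul_of_nonneg_left key (show 0 ≤ 16 * C by positivity)
    have h3 : 0 ≤ C * (r1 * (G z / r z)) := by positivity
    linarith
  · rw [dv_smul σ j a.dk gd]
    refine (nn_add_le _ _).trans ?_
    rw [nn_smul, nn_smul, abs_of_nonneg a.k0]
    have q1 := mul_le_mul_of_nonneg_left (gG_D c a j) a.k0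
    have q2 := mul_le_mul (a.bk j) g0 (nn_nonneg _) (mul_nonneg a.k0 hb)
    have h2 := mul_le_mul_of_nonneg_left key (show 0 ≤ 56 * C * b by positivity)
    linarith

/-- The covector field away from the diagonal, `γ = ρ G/(300000 r) (s h + e)`. -/
theorem gv_far {G r ρ : E → ℝ} {c0 B s : ℝ} (hs : |s| ≤ 20) (hc0 : 0 < c0) (hB : 0 ≤ B)
    (dG : DifferentiableAt ℝ G z) (G0 : 0 ≤ G z) (G1 : ∀ j, |σ.D j G z| ≤ B * G z)
    (dr : DifferentiableAt ℝ r z) (r0 : c0 ≤ r z) (r2 : ∀ j, |σ.D j r z| ≤ B)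
    (dρ : DifferentiableAt ℝ ρ z) (ρ2 : |ρ z| ≤ 2) (ρ1 : ∀ j, |σ.D j ρ z| ≤ B)
    (de : Dfv e z) (ee : nn (e z) ≤ 2) (be : ∀ j, nn (dv σ j e z) ≤ B)
    (dh : Dfv h z) (hh : nn (h z) ≤ 2) (bh : ∀ j, nn (dv σ j h z) ≤ B) :
    Gv σ e (fun z => (ρ z * G z / (300000 * r z)) • (s • h z + e z)) (fun z => G z / r z)
      1 (B + B / c0) z := by
  have rp : 0 < r z := hc0.trans_le r0
  have k0 : 0 ≤ G z / r z := by positivity
  have i1 : HasFDerivAt (fun z => (300000 * r z)⁻¹)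
      (-((300000 * r z) ^ 2)⁻¹ • ((300000 : ℝ) • fderiv ℝ r z)) z :=
    (hasDerivAt_inv (x := 300000 * r z) (by positivity)).comp_hasFDerivAt z
      (dr.hasFDerivAt.const_mul 300000)
  have ed : (fun z => ρ z * G z / (300000 * r z)) = fun z => ρ z * G z * (300000 * r z)⁻¹ := by
    funext z; rw [div_eq_mul_inv]
  have i2 : HasFDerivAt (fun z => ρ z * G z * (300000 * r z)⁻¹)
      ((ρ z * G z) • (-((300000 * r z) ^ 2)⁻¹ • ((300000 : ℝ) • fderiv ℝ r z)) +
        (300000 * r z)⁻¹ • (ρ z • fderiv ℝ G z + G z • fderiv ℝ ρ z)) z :=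
    (dρ.hasFDerivAt.mul dG.hasFDerivAt).mul i1
  have dk : DifferentiableAt ℝ (fun z => ρ z * G z / (300000 * r z)) z := by
    rw [ed]; exact i2.differentiableAt
  have dsh : Dfv (fun z => s • h z) z := fun i => (dh i).const_mul s
  have dg : Dfv (fun z => s • h z + e z) z := fun i => (dsh i).add (de i)
  have n0 : nn (s • h z + e z) ≤ 42 := by
    refine (nn_add_le _ _).trans ?_
    rw [nn_smul]
    have := mul_le_mul hs hh (nn_nonneg _) (by norm_num)
    linarith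
  have n1 : ∀ j, nn (dv σ j (fun z => s • h z + e z) z) ≤ 21 * B := by
    intro j
    have e1 : dv σ j (fun z => s • h z) z = s • dv σ j h z := by
      funext i
      simp only [dv, Sl.D, Pi.smul_apply, smul_eq_mul]
      rw [fderiv_const_mul (dh i)]
      simp only [_root_.smul_apply, smul_eq_mul]; ring
    rw [dv_add σ j dsh de, e1]
    refine (nn_add_le _ _).trans ?_
    rw [nn_smul]
    have := mul_le_mul hs (bh j) (nn_nonneg _) (by norm_num)
    have := be j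
    linarith
  have kk : |ρ z * G z / (300000 * r z)| ≤ 1 / 150000 * (G z / r z) := by
    rw [abs_div, abs_mul, abs_of_nonneg G0, abs_of_pos (by positivity : 0 < 300000 * r z),
      div_le_iff₀ (by positivity)]
    have h1 : 1 / 150000 * (G z / r z) * (300000 * r z) = 2 * G z := by field_simp; ring
    rw [h1]
    exact mul_le_mul_of_nonneg_right ρ2 G0
  have kD : ∀ j, |σ.D j (fun z => ρ z * G z / (300000 * r z)) z| ≤
      1 / 60000 * (G z / r z * (B + B / c0)) := by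
    intro j
    have i3 : σ.D j (fun z => ρ z * G z / (300000 * r z)) z =
        ρ z * G z * (-((300000 * r z) ^ 2)⁻¹ * (300000 * σ.D j r z)) +
          (300000 * r z)⁻¹ * (ρ z * σ.D j G z + G z * σ.D j ρ z) := by
      simp only [Sl.D]
      rw [ed, i2.fderiv]
      simp only [_root_.add_apply, _root_.smul_apply, smul_eq_mul]
      ring
    have i5 : ρ z * G z * (-((300000 * r z) ^ 2)⁻¹ * (300000 * σ.D j r z)) +
          (300000 * r z)⁻¹ * (ρ z * σ.D j G z + G z * σ.D j ρ z) =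
        (ρ z * G z * (-σ.D j r z) / r z + (ρ z * σ.D j G z + G z * σ.D j ρ z)) /
          (300000 * r z) := by
      field_simp
    rw [i3, i5, abs_div, abs_of_pos (by positivity : 0 < 300000 * r z), div_le_iff₀ (by positivity)]
    have a1 : |ρ z * G z * (-σ.D j r z) / r z| ≤ 2 * G z * (B / c0) := by
      rw [mul_div_assoc, abs_mul, abs_mul, abs_of_nonneg G0]
      have b1 : |-σ.D j r z / r z| ≤ B / c0 := by
        rw [abs_div, abs_neg, abs_of_pos rp]
        exact div_le_div₀ hB (r2 j) hc0 r0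
      exact mul_le_mul (mul_le_mul_of_nonneg_right ρ2 G0) b1 (abs_nonneg _) (by positivity)
    have a2 : |ρ z * σ.D j G z| ≤ 2 * (B * G z) := by
      rw [abs_mul]; exact mul_le_mul ρ2 (G1 j) (abs_nonneg _) (by norm_num)
    have a3 : |G z * σ.D j ρ z| ≤ G z * B := by
      rw [abs_mul, abs_of_nonneg G0]; exact mul_le_mul_of_nonneg_left (ρ1 j) G0
    have a4 : 1 / 60000 * (G z / r z * (B + B / c0)) * (300000 * r z) =
        5 * (G z * (B + B / c0)) := by field_simp; ring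
    rw [a4]
    refine (abs_add_le _ _).trans ((add_le_add a1 ((abs_add_le _ _).trans
      (add_le_add a2 a3))).trans ?_)
    have : 0 ≤ G z * (B / c0) := by positivity
    have : 0 ≤ G z * B := by positivity
    linarith
  have bB : B ≤ B + B / c0 := by have : 0 ≤ B / c0 := by positivity
                                 linarith
  have kb : 0 ≤ G z / r z * (B + B / c0) := mul_nonneg k0 (hB.trans bB)
  refine { C0 := by norm_num, b0 := hB.trans bB, k0 := k0, de := de, dg := fun i => dk.mul (dg i),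
           ee := ee, be := fun j => (be j).trans bB, g0 := ?_, g1 := fun j => ?_ }
  · rw [nn_smul]
    have := mul_le_mul kk n0 (nn_nonneg _) (by positivity)
    linarith
  · rw [dv_smul σ j dk dg]
    refine (nn_add_le _ _).trans ?_
    rw [nn_smul, nn_smul]
    have a1 := mul_le_mul kk (n1 j) (nn_nonneg _) (by positivity)
    have a2 := mul_le_mul (kD j) n0 (nn_nonneg _) (by positivity)
    have a3 : G z / r z * B ≤ G z / r z * (B + B / c0) := mul_le_mul_of_nonneg_left bB k0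
    linarith

/-- The numbers of zone A at a point, `T = N + G`. -/
structure Nu (σ : Sl E ι) (W m k : E → ℝ) (b B c₁ μ T : ℝ) (z : E) : Prop where
  T0 : 0 < T
  mt : Mt σ z
  lo : ∀ A : ι → ℝ, ∑ i, A i ^ 2 ≤ 2 * ss σ A z
  dW : Dfv (gw σ W) z
  W1 : c₁ * T ≤ nn (gw σ W z)
  W2 : ∀ j, nn (dv σ j (gw σ W) z) ≤ B * T
  k1 : k z ≤ B * T
  km : μ * k z ≤ m z
  m1 : m z ≤ B * T
  m2 : ∀ j, |σ.D j m z| ≤ b * m z

omit [NormedAddCommGroup E] [NormedSpace ℝ E] in
/-- The Cauchy-Schwarz constant of the metric. -/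
theorem sK_card (s2 : ∀ i j, |σ.s i j z| ≤ 2) {K : ℝ} (hK : 2 * (Fintype.card ι : ℝ) ≤ K)
    (A B : ι → ℝ) :
    (∑ i, ∑ j, σ.s i j z * A i * B j) ^ 2 ≤ K ^ 2 * ((∑ i, A i ^ 2) * ∑ i, B i ^ 2) := by
  have h1 := H960.W.abs_sum2_le (fun i j => σ.s i j z) s2 A B
  have h2 := L1_mul A B
  have h3 : |∑ i, ∑ j, σ.s i j z * A i * B j| ≤ K * (nn A * nn B) := by
    refine h1.trans ?_
    have h4 := mul_le_mul_of_nonneg_left h2 (by norm_num : (0 : ℝ) ≤ 2)
    refine h4.trans ?_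
    have : 0 ≤ nn A * nn B := mul_nonneg (nn_nonneg _) (nn_nonneg _)
    have := mul_le_mul_of_nonneg_right hK this
    linarith
  have h5 := pow_le_pow_left₀ (abs_nonneg _) h3 2
  rw [sq_abs] at h5
  refine h5.trans (le_of_eq ?_)
  have e1 : nn A ^ 2 = ∑ i, A i ^ 2 := by
    rw [nn_sq]; exact Finset.sum_congr rfl fun i _ => by ring
  have e2 : nn B ^ 2 = ∑ i, B i ^ 2 := by
    rw [nn_sq]; exact Finset.sum_congr rfl fun i _ => by ring
  rw [← e1, ← e2]; ring

end gen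

/-- **`SmS` for a covector field in the regime**: `η` arbitrary, then `T` large. -/
theorem smS_gv {E : Type*} {ι : Type} [NormedAddCommGroup E] [NormedSpace ℝ E] [Fintype ι]
    [Nonempty ι] {C b B c₁ μ η K : ℝ} (hC : 0 < C) (hb : 0 ≤ b) (hB : 0 < B) (hc₁ : 0 < c₁)
    (hμ : 0 < μ) (hη : 0 < η) (hK : 2 * (Fintype.card ι : ℝ) ≤ K) :
    ∃ T₀ : ℝ, 1 ≤ T₀ ∧ ∀ (σ : Sl E ι) (W m k v : E → ℝ) (e γ : E → ι → ℝ) (T : ℝ) (z : E),
      T₀ ≤ T → Nu σ W m k b B c₁ μ T z → Gv σ e γ k C b z → v z = 0 →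
      SmS σ W m (fun l z => fl (e z) (gw σ W z) (γ z) l) v η K z := by
  have N0 : (0 : ℝ) ≤ Fintype.card ι := Nat.cast_nonneg _
  obtain ⟨ε, hε, e1, e2, e3⟩ := ex_eps (Fintype.card ι : ℝ) (27 * C) μ η N0 (by positivity) hμ hη
  obtain ⟨C₂, hC₂⟩ : ∃ C₂ : ℝ, C₂ = b + B + 3 := ⟨_, rfl⟩
  have C₂0 : 0 < C₂ := by rw [hC₂]; positivity
  have p1 : 0 < C₂ / (ε * c₁ ^ 2) := by positivity
  have p2 : 0 < C₂ / (ε * c₁) := by positivity
  refine ⟨1 + C₂ / (ε * c₁ ^ 2) + C₂ / (ε * c₁), by linarith, ?_⟩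
  intro σ W m k v e γ T z hT h g hv
  have T1 : 1 ≤ T := by linarith
  have t1 : C₂ ≤ ε * c₁ ^ 2 * T := by
    have : C₂ / (ε * c₁ ^ 2) ≤ T := by linarith
    rw [div_le_iff₀ (by positivity)] at this
    linarith
  have t2 : C₂ ≤ ε * c₁ * T := by
    have : C₂ / (ε * c₁) ≤ T := by linarith
    rw [div_le_iff₀ (by positivity)] at this
    linarith
  have rg : Rg σ W k b ε z := by
    refine rg_of h.dW hc₁ h.T0 hε h.W1 (fun j => (h.W2 j).trans ?_) (h.k1.trans ?_) ?_ t1 t2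
    · exact mul_le_mul_of_nonneg_right (by rw [hC₂]; linarith) h.T0.le
    · exact mul_le_mul_of_nonneg_right (by rw [hC₂]; linarith) h.T0.le
    · rw [hC₂]; linarith
  have hw2 : (c₁ * T) ^ 2 ≤ nn (gw σ W z) ^ 2 :=
    pow_le_pow_left₀ (mul_nonneg hc₁.le h.T0.le) h.W1 2
  have i1 : 0 ≤ (Fintype.card ι : ℝ) ^ 2 * (27 * C * ε) := by positivity
  have i2 : 0 ≤ (Fintype.card ι : ℝ) * ((27 * C) ^ 2 * ε) := by positivity
  refine smS_fc (g.fc rg) rg hb h.mt hv hμ hη h.lo (sK_card h.mt.s2 hK) h.km ?_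
    (fun i => by have := h.m2 i; linarith) e1 (by linarith) (by linarith)
  have a1 := mul_le_mul_of_nonneg_left hw2 hε.le
  have a2 := mul_le_mul_of_nonneg_right t1 h.T0.le
  have a3 : 2 + m z ≤ C₂ * T := by
    have := h.m1
    rw [hC₂]
    have : 0 ≤ b * T := mul_nonneg hb h.T0.le
    linarith
  linarith

end Vale.Agent.P088.R2.H983.A
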